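import Crest.Agent.R193.Defs

/-!
# R193/B/Ad: elementary consequences of `Ad` (pure metric inequalities)
-/

set_option autoImplicit false
open Set Metric Filter Topology MeasureTheory

namespace Crest.Agent.R193

variable {G : Type} [Group G] {Z : Type} [MetricSpace Z] [MulAction G Z]

theorem sc_pos (n : ℕ) : 0 < sc n := by unfold sc; positivity
theorem sc_zero : sc 0 = 1 := by simp [sc]
theorem sc_add (m n : ℕ) : sc (m + n) = sc m * sc n := by simp [sc, pow_add]
theorem sc_succ (n : ℕ) : sc (n + 1) = sc n / 2 := by simp [sc, pow_succ]; ring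
theorem sc_le_one (n : ℕ) : sc n ≤ 1 := pow_le_one₀ (by norm_num) (by norm_num)
theorem sc_anti {m n : ℕ} (h : m ≤ n) : sc n ≤ sc m :=
  pow_le_pow_of_le_one (by norm_num) (by norm_num) h
theorem two_pow_mul_sc (n : ℕ) : (2 : ℝ) ^ n * sc n = 1 := by
  simp [sc, ← mul_pow]
theorem tendsto_sc : Tendsto sc atTop (𝓝 0) :=
  tendsto_pow_atTop_nhds_zero_of_lt_one (by norm_num) (by norm_num)
theorem 𝒰_le : 𝒰 ≤ atTop := Nat.hyperfilter_le_atTop

/-- for `0 < r ≤ 1` there is a dyadic scale with `r ≤ sc n < 2 r` -/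
theorem exists_sc {r : ℝ} (h0 : 0 < r) (h1 : r ≤ 1) : ∃ n, r ≤ sc n ∧ sc n < 2 * r := by
  obtain ⟨n, h2, h3⟩ := exists_nat_pow_near_of_lt_one h0 h1 (y := 1 / 2) (by norm_num) (by norm_num)
  refine ⟨n, h3, ?_⟩
  have h4 : sc (n + 1) < r := h2
  rw [sc_succ] at h4
  linarith

theorem Ad.ada_up {C : ℝ} {g : G} {x : Z} {r a b : ℝ} (h : Ad C g x r) {y z : Z} (ha0 : 0 ≤ a)
    (hb0 : 0 ≤ b) (ha : a ≤ max (dist y x) r) (hb : b ≤ max (dist z x) r) :
    dist (g • y) (g • z) * (a * b) ≤ C * (r * dist y z) :=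
  (mul_le_mul_of_nonneg_left (mul_le_mul ha hb hb0 (ha0.trans ha)) dist_nonneg).trans (h y z).1

theorem Ad.ada_low {C : ℝ} {g : G} {x : Z} {r a b : ℝ} (h : Ad C g x r) (hC : 0 < C) {y z : Z}
    (ha : max (dist y x) r ≤ a) (hb : max (dist z x) r ≤ b) :
    r * dist y z ≤ C * (dist (g • y) (g • z) * (a * b)) :=
  (h y z).2.trans (mul_le_mul_of_nonneg_left (mul_le_mul_of_nonneg_left
    (mul_le_mul ha hb (le_max_of_le_left dist_nonneg) ((le_max_of_le_left dist_nonneg).trans ha))
    dist_nonneg) hC.le)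

theorem Ad.mono {C C' : ℝ} {g : G} {x : Z} {r : ℝ} (h : Ad C g x r) (hr : 0 < r) (hC : C ≤ C') :
    Ad C' g x r := by
  exact fun y z => ⟨(h y z).1.trans (mul_le_mul_of_nonneg_right hC (by positivity)),
    (h y z).2.trans (mul_le_mul_of_nonneg_right hC (by positivity))⟩

/-- both maxima are `≥ r` -/
theorem Ad.up {C : ℝ} {g : G} {x : Z} {r : ℝ} (h : Ad C g x r) (hr : 0 < r) (y z : Z) :
    dist (g • y) (g • z) ≤ C * dist y z / r := by
  have h1 := h.ada_up hr.le hr.le (le_max_right (dist y x) r) (le_max_right (dist z x) r)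
  rw [le_div_iff₀ hr]
  exact le_of_mul_le_mul_right (by linarith) hr

/-- upper bound away from the centre -/
theorem Ad.up_far {C : ℝ} {g : G} {x : Z} {r η : ℝ} (h : Ad C g x r) (hr : 0 < r) (hη : 0 < η)
    {y z : Z} (hy : η ≤ dist y x) (hz : η ≤ dist z x) :
    dist (g • y) (g • z) ≤ C * r * dist y z / η ^ 2 := by
  have h1 := h.ada_up hη.le hη.le (le_max_of_le_left hy) (le_max_of_le_left hz)
  rw [le_div_iff₀ (by positivity)]
  linarith

/-- lower bound near the centre -/
theorem Ad.low {C : ℝ} {g : G} {x : Z} {r R : ℝ} (h : Ad C g x r) (hC : 0 < C) (hr : 0 < r)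
    (hR : 1 ≤ R) {y z : Z} (hy : dist y x ≤ R * r) (hz : dist z x ≤ R * r) :
    dist y z / (C * R ^ 2 * r) ≤ dist (g • y) (g • z) := by
  have h0 : r ≤ R * r := le_mul_of_one_le_left hr.le hR
  have h1 := h.ada_low hC (max_le hy h0) (max_le hz h0)
  rw [div_le_iff₀ (by positivity)]
  exact le_of_mul_le_mul_right (by linarith) hr

/-- global lower bound when the diameter is `≤ 1` -/
theorem Ad.low_all {C : ℝ} {g : G} {x : Z} {r : ℝ} (h : Ad C g x r) (hC : 0 < C) (hr : 0 < r)
    (hr1 : r ≤ 1) (hd : ∀ a b : Z, dist a b ≤ 1) (y z : Z) :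
    r * dist y z / C ≤ dist (g • y) (g • z) := by
  have h1 := h.ada_low hC (max_le (hd y x) hr1) (max_le (hd z x) hr1)
  rw [div_le_iff₀ hC]
  linarith

/-- far points are squeezed: `d(y,z) ≤ 2 max (d(y,x), d(z,x))` -/
theorem Ad.far {C : ℝ} {g : G} {x : Z} {r R : ℝ} (h : Ad C g x r) (hC : 0 < C) (hr : 0 < r)
    (hR : 0 < R) {y z : Z} (hy : R * r ≤ dist y x) (hz : R * r ≤ dist z x) :
    dist (g • y) (g • z) ≤ 2 * C / R := by
  have h0 : 0 < R * r := by positivity
  have h1 := h.ada_up dist_nonneg dist_nonneg (le_max_left (dist y x) r) (le_max_left (dist z x) r)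
  have h2 := mul_le_mul_of_nonneg_left (dist_triangle_right y z x) (show 0 ≤ C * (R * r) by positivity)
  have h3 := mul_le_mul_of_nonneg_left hy (show 0 ≤ C * dist z x by positivity)
  have h4 := mul_le_mul_of_nonneg_left hz (show 0 ≤ C * dist y x by positivity)
  have h5 := mul_le_mul_of_nonneg_left h1 hR.le
  rw [le_div_iff₀ hR]
  exact le_of_mul_le_mul_right (by linarith) (mul_pos (h0.trans_le hy) (h0.trans_le hz))

/-- near and far points are separated: `d(y,z) ≥ d(z,x)/2` -/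
theorem Ad.sep {C : ℝ} {g : G} {x : Z} {r R : ℝ} (h : Ad C g x r) (hC : 0 < C) (hr : 0 < r)
    (hR : 1 ≤ R) {y z : Z} (hy : dist y x ≤ R * r) (hz : 2 * R * r ≤ dist z x) :
    1 / (2 * C * R) ≤ dist (g • y) (g • z) := by
  have h0 : r ≤ R * r := le_mul_of_one_le_left hr.le hR
  have h1 := h.ada_low hC (max_le hy h0) (max_le (le_refl (dist z x)) (by linarith))
  have h2 : dist z x ≤ 2 * dist y z := by linarith [dist_triangle_left z x y]
  have h3 := mul_le_mul_of_nonneg_left h2 hr.le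
  rw [div_le_iff₀ (by positivity)]
  exact le_of_mul_le_mul_right (by linarith) (mul_pos hr (show 0 < dist z x by linarith))

/-- if `y` is near the centre and `g z` is close to `g y`, then `z` is close to `y`
(`d(z,x) ≤ d(y,z) + R r`, solve the second inequality of `Ad` for `d(y,z)`). -/
theorem Ad.inv_near {C : ℝ} {g : G} {x : Z} {r R : ℝ} (h : Ad C g x r) (hC : 0 < C) (hr : 0 < r)
    (hR : 1 ≤ R) {y z : Z} (hy : dist y x ≤ R * r) (hz : C * R * dist (g • y) (g • z) ≤ 1 / 2) :
    dist y z ≤ 2 * C * R ^ 2 * r * dist (g • y) (g • z) := by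
  have h0 : r ≤ R * r := le_mul_of_one_le_left hr.le hR
  have h1 := h.ada_low hC (max_le hy h0) (b := dist y z + R * r) (z := z)
    (max_le (by linarith [dist_triangle_left z x y]) (by linarith [dist_nonneg (x := y) (y := z)]))
  have h2 := mul_le_mul_of_nonneg_left hz (show 0 ≤ r * dist y z by positivity)
  exact le_of_mul_le_mul_left (by linarith) hr

private theorem adb_cmp {C J K L D D' a a' b b' e e' : ℝ} (hC : 0 < C) (hJ : 0 ≤ J) (hK : 0 ≤ K)
    (hL : 0 ≤ L) (hD : 0 ≤ D) (ha : 0 ≤ a) (hb : 0 ≤ b) (hD' : 0 ≤ D') (ha' : 0 ≤ a') (hb' : 0 ≤ b')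
    (h : D * (a * b) ≤ C * e ∧ e ≤ C * (D * (a * b))) (d1 : D' ≤ J * D) (d2 : D ≤ J * D')
    (a1 : a' ≤ L * a) (a2 : a ≤ L * a') (b1 : b' ≤ L * b) (b2 : b ≤ L * b') (e1 : e' ≤ K * e)
    (e2 : e ≤ K * e') :
    D' * (a' * b') ≤ C * J * K * L ^ 2 * e' ∧ e' ≤ C * J * K * L ^ 2 * (D' * (a' * b')) := by
  constructor
  · calc D' * (a' * b') ≤ J * D * (L * a * (L * b)) := by gcongr
      _ = J * L ^ 2 * (D * (a * b)) := by ring
      _ ≤ J * L ^ 2 * (C * (K * e')) :=
        mul_le_mul_of_nonneg_left (h.1.trans (mul_le_mul_of_nonneg_left e2 hC.le)) (by positivity)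
      _ = _ := by ring
  · calc e' ≤ K * (C * (D * (a * b))) := e1.trans (mul_le_mul_of_nonneg_left h.2 hK)
      _ ≤ K * (C * (J * D' * (L * a' * (L * b')))) := by gcongr
      _ = _ := by ring

/-- moving the centre and the scale by bounded amounts -/
theorem Ad.shift {C K : ℝ} {g : G} {x x' : Z} {r r' : ℝ} (h : Ad C g x r) (hC : 0 < C)
    (hK : 1 ≤ K) (hr : 0 < r) (hr' : 0 < r') (hx : dist x x' ≤ K * r) (h1 : r ≤ K * r')
    (h2 : r' ≤ K * r) : Ad (C * K * (2 * K ^ 2) ^ 2) g x' r' := by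
  have hKK : K ≤ K ^ 2 := by nlinarith
  have m1 : ∀ y : Z, max (dist y x') r' ≤ 2 * K ^ 2 * max (dist y x) r := fun y => by
    have p1 := le_max_left (dist y x) r
    have p2 := le_max_right (dist y x) r
    have p3 := dist_triangle y x x'
    have p4 : K * r ≤ K ^ 2 * max (dist y x) r := mul_le_mul hKK p2 hr.le (by positivity)
    have p5 : max (dist y x) r ≤ K ^ 2 * max (dist y x) r :=
      le_mul_of_one_le_left (by positivity) (by linarith)
    exact max_le (by linarith) (by linarith)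
  have m2 : ∀ y : Z, max (dist y x) r ≤ 2 * K ^ 2 * max (dist y x') r' := fun y => by
    have p1 := le_max_left (dist y x') r'
    have p2 := le_max_right (dist y x') r'
    have p3 := dist_triangle_right y x x'
    have p4 : K * r ≤ K ^ 2 * max (dist y x') r' := by
      calc K * r ≤ K * (K * r') := mul_le_mul_of_nonneg_left h1 (by linarith)
        _ = K ^ 2 * r' := by ring
        _ ≤ _ := mul_le_mul_of_nonneg_left p2 (by positivity)
    have p5 : max (dist y x') r' ≤ K ^ 2 * max (dist y x') r' :=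
      le_mul_of_one_le_left (by positivity) (by linarith)
    have p6 : r ≤ K * r := le_mul_of_one_le_left hr.le hK
    exact max_le (by linarith) (by linarith)
  intro y z
  have hd := dist_nonneg (x := y) (y := z)
  have := adb_cmp (J := 1) (K := K) (L := 2 * K ^ 2) (e' := r' * dist y z) hC zero_le_one
    (by linarith) (by positivity) dist_nonneg (by positivity) (by positivity) dist_nonneg
    (by positivity) (by positivity) (h y z) (one_mul _).ge (one_mul _).ge (m1 y) (m2 y) (m1 z) (m2 z)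
    (by nlinarith) (by nlinarith)
  rwa [mul_one] at this

/-- composing on the left with a bi-Lipschitz element -/
theorem Ad.mul_left {C K : ℝ} {g σ : G} {x : Z} {r : ℝ} (h : Ad C g x r) (hC : 0 < C)
    (hK : 1 ≤ K) (hr : 0 < r) (h1 : ∀ a b : Z, dist (σ • a) (σ • b) ≤ K * dist a b)
    (h2 : ∀ a b : Z, dist a b ≤ K * dist (σ • a) (σ • b)) : Ad (C * K) (σ * g) x r := by
  intro y z
  have := adb_cmp (J := K) (K := 1) (L := 1) hC (by linarith) zero_le_one zero_le_one dist_nonneg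
    (by positivity) (by positivity) dist_nonneg (by positivity) (by positivity) (h y z) (h1 _ _)
    (h2 _ _) (one_mul _).ge (one_mul _).ge (one_mul _).ge (one_mul _).ge (one_mul _).ge
    (one_mul _).ge
  simpa only [mul_smul, mul_one, one_pow] using this

/-- composing on the right with a bi-Lipschitz element -/
theorem Ad.mul_right {C K : ℝ} {g σ : G} {x : Z} {r : ℝ} (h : Ad C g x r) (hC : 0 < C)
    (hK : 1 ≤ K) (hr : 0 < r) (h1 : ∀ a b : Z, dist (σ • a) (σ • b) ≤ K * dist a b)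
    (h2 : ∀ a b : Z, dist a b ≤ K * dist (σ • a) (σ • b)) :
    Ad (C * K ^ 3) (g * σ⁻¹) (σ • x) r := by
  intro y z
  obtain ⟨y, rfl⟩ : ∃ y', y = σ • y' := ⟨σ⁻¹ • y, by simp⟩
  obtain ⟨z, rfl⟩ : ∃ z', z = σ • z' := ⟨σ⁻¹ • z, by simp⟩
  have hr1 : r ≤ K * r := le_mul_of_one_le_left hr.le hK
  have m : ∀ a b : ℝ, a ≤ K * b → max a r ≤ K * max b r := fun a b hab =>
    max_le (hab.trans (mul_le_mul_of_nonneg_left (le_max_left _ _) (by linarith)))
      (hr1.trans (mul_le_mul_of_nonneg_left (le_max_right _ _) (by linarith)))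
  have := adb_cmp (J := 1) (K := K) (L := K) (e' := r * dist (σ • y) (σ • z)) hC zero_le_one
    (by linarith) (by linarith) dist_nonneg (by positivity) (by positivity) dist_nonneg
    (by positivity) (by positivity) (h y z) (one_mul _).ge (one_mul _).ge (m _ _ (h1 y x))
    (m _ _ (h2 y x)) (m _ _ (h1 z x)) (m _ _ (h2 z x)) (by nlinarith [h1 y z]) (by nlinarith [h2 y z])
  rw [show C * 1 * K * K ^ 2 = C * K ^ 3 by ring] at this
  simpa only [mul_smul, inv_smul_smul] using this

end Crest.Agent.R193
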