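import Crest.Agent.R193.B.Grp

/-!
# R193/B/Cov: doubling, linear local connectivity, cells, stabilisers
-/

set_option autoImplicit false
open Set Metric Filter Topology MeasureTheory

namespace Crest.Agent.R193

variable {G : Type} [Group G] {Z : Type} [MetricSpace Z] [CompactSpace Z] [MulAction G Z]

/-- separated sets in a compact space have bounded size -/
theorem cova_sep {ε : ℝ} (hε : 0 < ε) : ∃ N : ℕ, ∀ T : Finset Z,
    (∀ a ∈ T, ∀ b ∈ T, a ≠ b → ε ≤ dist a b) → T.card ≤ N := by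
  classical
  obtain ⟨F, -, hF, hcov⟩ := finite_cover_balls_of_compact (isCompact_univ (X := Z)) (half_pos hε)
  have h1 : ∀ z : Z, ∃ y ∈ F, dist z y < ε / 2 := fun z => by
    simpa using hcov (mem_univ z)
  choose c hc hd using h1
  refine ⟨hF.toFinset.card, fun T hT => Finset.card_le_card_of_injOn c
    (fun a _ => by simpa using hc a) fun a ha b hb hab => ?_⟩
  by_contra hne
  have h2 := hT a ha b hb hne
  have h3 := dist_triangle_right a b (c a)
  have h4 := hd b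
  rw [← hab] at h4
  linarith [hd a]

/-- maximal separated nets -/
theorem cova_net {ε : ℝ} (hε : 0 < ε) : ∃ T : Finset Z,
    (∀ a ∈ T, ∀ b ∈ T, a ≠ b → ε ≤ dist a b) ∧ ∀ z, ∃ x ∈ T, dist z x < ε := by
  classical
  obtain ⟨N, hN⟩ := cova_sep (Z := Z) hε
  let P : ℕ → Prop := fun n => ∃ T : Finset Z, (∀ a ∈ T, ∀ b ∈ T, a ≠ b → ε ≤ dist a b) ∧ T.card = n
  have h0 : P 0 := ⟨∅, by simp, rfl⟩
  obtain ⟨T, hT, hc⟩ : P (Nat.findGreatest P N) := Nat.findGreatest_spec (Nat.zero_le N) h0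
  refine ⟨T, hT, fun z => ?_⟩
  by_contra hz
  push Not at hz
  have hzT : z ∉ T := fun h => by
    have := hz z h
    rw [dist_self] at this
    linarith
  have h1 : ∀ a ∈ insert z T, ∀ b ∈ insert z T, a ≠ b → ε ≤ dist a b := by
    intro a ha b hb hab
    rcases Finset.mem_insert.1 ha with rfl | ha' <;> rcases Finset.mem_insert.1 hb with rfl | hb'
    · exact absurd rfl hab
    · exact hz b hb'
    · rw [dist_comm]; exact hz a ha'
    · exact hT a ha' b hb' hab
  have h2 := Nat.le_findGreatest (P := P) (hN _ h1) ⟨_, h1, rfl⟩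
  rw [Finset.card_insert_of_notMem hzT, hc] at h2
  omega

/-- `r ≤ 1`: an adapted `g` maps `T` to a `1/(C R²)`-separated set (`Ad.low`), total boundedness; `r > 1`: `card ≤ 1`. -/
theorem HA.doubling (H : HA G Z) (R : ℝ) : ∃ N : ℕ, ∀ (x : Z) (r : ℝ) (T : Finset Z), 0 < r →
    (∀ a ∈ T, dist a x < R * r) → (∀ a ∈ T, ∀ b ∈ T, a ≠ b → r ≤ dist a b) → T.card ≤ N := by
  classical
  obtain ⟨C, hC, had⟩ := H.exists_ad
  have hC0 : 0 < C := lt_of_lt_of_le one_pos hC
  have hR : 1 ≤ max R 1 := le_max_right _ _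
  obtain ⟨N, hN⟩ := cova_sep (Z := Z) (ε := 1 / (C * max R 1 ^ 2)) (by positivity)
  refine ⟨max N 1, fun x r T hr h1 h2 => ?_⟩
  rcases le_or_gt r 1 with hr1 | hr1
  · obtain ⟨g, hg⟩ := had x r hr hr1
    have h3 : ∀ a ∈ T, dist a x ≤ max R 1 * r := fun a ha =>
      (h1 a ha).le.trans (mul_le_mul_of_nonneg_right (le_max_left _ _) hr.le)
    have h4 := hN (T.image fun a => g • a) (by
      intro a ha b hb hab
      obtain ⟨a, ha', rfl⟩ := Finset.mem_image.1 ha
      obtain ⟨b, hb', rfl⟩ := Finset.mem_image.1 hb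
      refine le_trans ?_ (hg.low hC0 hr hR (h3 a ha') (h3 b hb'))
      have h5 := h2 a ha' b hb' fun h => hab (by rw [h])
      calc 1 / (C * max R 1 ^ 2) = r / (C * max R 1 ^ 2 * r) := by field_simp
        _ ≤ _ := div_le_div_of_nonneg_right h5 (by positivity))
    rw [Finset.card_image_of_injective _ (MulAction.injective g)] at h4
    exact le_max_of_le_left h4
  · refine le_max_of_le_right (Finset.card_le_one.2 fun a ha b hb => ?_)
    by_contra hab
    linarith [h2 a ha b hb hab, H.dist_le a b]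

/-- `δ` from `sph_ulc` for `ε = 1/(2C)`, `λ = C/δ`, `g` adapted at `(x, λ r)`, `B = g⁻¹ B'` (`Ad.up`, `Ad.sep`);
`B = univ` if `λ r > 1`. -/
theorem HA.llc1 (H : HA G Z) : ∃ L : ℝ, 1 ≤ L ∧ ∀ (x : Z) (r : ℝ), 0 < r →
    ∃ B : Set Z, IsOpen B ∧ IsPreconnected B ∧ ball x r ⊆ B ∧ B ⊆ ball x (L * r) := by
  obtain ⟨C, hC, h⟩ := H.exists_ad
  have hC0 : 0 < C := by linarith
  obtain ⟨δ, hδ, hB⟩ := sph_ulc H.sph (ε := 1 / (2 * C * 1)) (by positivity)
  have := H.ccs
  have := sph_connected H.sph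
  have h1 : 0 < C / δ := by positivity
  refine ⟨2 * (C / δ + 1), by linarith, fun x r hr => ?_⟩
  have h2 : 0 < (C / δ + 1) * r := by positivity
  rcases le_total ((C / δ + 1) * r) 1 with h3 | h3
  · obtain ⟨g, hg⟩ := h x _ h2 h3
    obtain ⟨B, b1, b2, b3, b4⟩ := hB (g • x)
    refine ⟨Homeomorph.smul g ⁻¹' B, b1.preimage (Homeomorph.smul g).continuous,
      (Homeomorph.smul g).isPreconnected_preimage.2 b2, fun y hy => b3 ?_, fun z hz => ?_⟩
    · refine (hg.up h2 y x).trans_lt ?_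
      rw [div_lt_iff₀ h2, show δ * ((C / δ + 1) * r) = C * r + δ * r by field_simp]
      linarith [mul_lt_mul_of_pos_left (mem_ball.1 hy) hC0, mul_pos hδ hr]
    · refine mem_ball.2 <| lt_of_not_ge fun h4 => (mem_ball'.1 (b4 hz)).not_ge ?_
      exact hg.sep hC0 h2 le_rfl (by rw [dist_self]; linarith) (by linarith)
  · exact ⟨univ, isOpen_univ, isPreconnected_univ, subset_univ _,
      fun z _ => (H.dist_le z x).trans_lt (by linarith)⟩

/-- `g` adapted at `(x, r)`, `z₀ ∉ ball x (Λ r)`, `B = g⁻¹ B'` with `B'` from `sph_ulc` at `g z₀`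
(`Ad.far`, `Ad.sep`); `B = ∅` if the complement is empty. -/
theorem HA.llc2 (H : HA G Z) : LLC2 Z := by
  obtain ⟨C, hC, h⟩ := H.exists_ad
  have hC0 : 0 < C := by linarith
  obtain ⟨δ, hδ, hB⟩ := sph_ulc H.sph (ε := 1 / (2 * C * 1)) (by positivity)
  have := H.ccs
  have h1 : 0 < 2 * C / δ := by positivity
  refine ⟨2 * C / δ + 2, by linarith, fun x r hr => ?_⟩
  rcases (ball x ((2 * C / δ + 2) * r))ᶜ.eq_empty_or_nonempty with h2 | ⟨z₀, h2⟩
  · exact ⟨∅, isPreconnected_empty, h2.le, empty_subset _⟩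
  have h3 : (2 * C / δ + 2) * r ≤ dist z₀ x := le_of_not_gt h2
  have h4 := mul_pos h1 hr
  obtain ⟨g, hg⟩ := h x r hr (by linarith [H.dist_le z₀ x])
  obtain ⟨B, -, b2, b3, b4⟩ := hB (g • z₀)
  refine ⟨Homeomorph.smul g ⁻¹' B, (Homeomorph.smul g).isPreconnected_preimage.2 b2, fun z hz => b3 ?_,
    fun y hy hy' => (mem_ball.1 (b4 hy)).not_ge ?_⟩
  · refine (hg.far hC0 hr (by linarith) (le_of_not_gt hz) h3).trans_lt ?_
    rw [div_lt_iff₀ (by linarith), show δ * (2 * C / δ + 2) = 2 * C + 2 * δ by field_simp]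
    linarith
  · exact hg.sep hC0 hr le_rfl (by linarith [mem_ball.1 hy']) (by linarith)

/-- maximal separated nets (finite by total boundedness), cells from `llc1` -/
theorem HA.exists_cov (H : HA G Z) : Nonempty (Cov Z) := by
  obtain ⟨L, hL, h⟩ := H.llc1
  have hsc : ∀ n, 0 < sc n := fun n => pow_pos (by norm_num) n
  choose net h1 h2 using fun n => cova_net (Z := Z) (hsc n)
  choose cell h3 h4 h5 h6 using fun (n : ℕ) (x : Z) => h x (2 * sc n) (mul_pos two_pos (hsc n))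
  refine ⟨⟨2 * L, net, cell, by linarith, h1, h2, h3, h4, h5, fun n x => ?_, H.doubling⟩⟩
  rw [mul_comm 2 L, mul_assoc]
  exact h6 n x

/-- stabiliser bound.  For `x, x' ∈ T` the element `h = (g x')⁻¹ * g x` fixes `b` and does not contract
`ball b (min (η/2) (η³/(4C²)))`: `d(g x y, g x z) ≥ r d(y,z)/C` (`Ad.low_all`); `y' = h y` has
`d(y', b) ≤ 2C² d(y,b)/η² ≤ η/2`, so `Ad.up_far` for `g x'` at `y', z'` gives `d(y',z') ≥ η²/(4C²) d(y,z)`.
`len_le_of_low`, `fin_ball`: finitely many values of `g x`; each fibre lies in a ball of radius `K r`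
(`ad_unique`), `doubling`. -/
theorem HA.stab_bound (H : HA G Z) (C η : ℝ) (hη : 0 < η) : ∃ N : ℕ,
    ∀ (r : ℝ) (T : Finset Z) (g : Z → G) (b c : Z), 0 < r → r ≤ 1 →
      (∀ x ∈ T, ∀ y ∈ T, x ≠ y → r ≤ dist x y) →
      (∀ x ∈ T, Ad C (g x) x r ∧ η ≤ dist x b ∧ g x • b = c) → T.card ≤ N := by
  classical
  obtain ⟨D, hD, hCD⟩ : ∃ D : ℝ, 0 < D ∧ C ≤ D := ⟨max C 1, by positivity, le_max_left _ _⟩
  obtain ⟨R, hR⟩ := H.len_le_of_low (D * D / (η / 2) ^ 2) (min (η / 2) (η / 2 / (D * D / (η / 2) ^ 2)))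
    (by positivity)
  obtain ⟨K, -, hK⟩ := H.ad_unique C
  obtain ⟨N, hN⟩ := H.doubling (K + 1)
  refine ⟨N * (H.fin_ball R).toFinset.card, fun r T g b c hr hr1 hT hg => ?_⟩
  rcases T.eq_empty_or_nonempty with rfl | ⟨x', hx'⟩
  · exact Nat.zero_le _
  -- the basic comparison
  have key : ∀ x ∈ T, ∀ x' ∈ T, ∀ y z y' z' : Z, g x • y = g x' • y' → g x • z = g x' • z' →
      dist y b ≤ η / 2 → dist z b ≤ η / 2 → dist y' z' ≤ D * D / (η / 2) ^ 2 * dist y z := by
    intro x hx x' hx' y z y' z' hy hz h1 h2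
    have h3 : ∀ u, dist u b ≤ η / 2 → η / 2 ≤ dist u x := fun u hu => by
      linarith [(hg x hx).2.1, dist_triangle_left x b u]
    have h4 := ((hg x hx).1.mono hr hCD).up_far hr (half_pos hη) (h3 y h1) (h3 z h2)
    have h5 := (((hg x' hx').1.mono hr hCD).low_all hD hr hr1 H.dist_le y' z').trans (hy ▸ hz ▸ h4)
    rw [div_le_iff₀ hD] at h5
    exact le_of_mul_le_mul_left (h5.trans_eq (by ring)) hr
  refine Finset.card_le_mul_card_image_of_maps_to (f := fun x => (g x')⁻¹ * g x) (fun x hx => ?_) N fun σ _ => ?_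
  · refine (Set.Finite.mem_toFinset _).2 (hR _ b fun y hy z hz => ?_)
    have h1 : ∀ u : Z, g x • u = g x' • ((g x')⁻¹ * g x) • u := fun u => by rw [smul_smul, mul_inv_cancel_left]
    have h2 : ∀ u ∈ ball b (min (η / 2) (η / 2 / (D * D / (η / 2) ^ 2))), dist (((g x')⁻¹ * g x) • u) b ≤ η / 2 :=
      fun u hu => by
        have h3 := lt_min_iff.1 (mem_ball.1 hu)
        refine (key x hx x' hx' u b _ b (h1 u) ((hg x hx).2.2.trans (hg x' hx').2.2.symm) h3.1.le
          (by rw [dist_self]; positivity)).trans ?_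
        rw [mul_comm]
        exact (le_div_iff₀ (by positivity)).1 h3.2.le
    exact key x' hx' x hx _ _ y z (h1 y).symm (h1 z).symm (h2 y hy) (h2 z hz)
  · rcases (T.filter fun x => (g x')⁻¹ * g x = σ).eq_empty_or_nonempty with h | ⟨x₀, h₀⟩
    · rw [h]
      exact Nat.zero_le _
    refine hN x₀ r _ hr (fun x hx => ?_) fun x hx y hy => hT x (Finset.mem_filter.1 hx).1 y (Finset.mem_filter.1 hy).1
    rw [Finset.mem_filter] at hx h₀
    have h1 : g x₀ = g x := mul_left_cancel (h₀.2.trans hx.2.symm)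
    linarith [(hK (g x) x x₀ r r hr hr1 hr hr1 (hg x hx.1).1 (h1 ▸ (hg x₀ h₀.1).1)).2]

end Crest.Agent.R193
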