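import Crest.Agent.R193.Defs

/-!
# R193/B/Top: topology of a metric sphere
-/

set_option autoImplicit false
open Set Metric Filter Topology MeasureTheory

namespace Crest.Agent.R193

variable {Z : Type} [MetricSpace Z]

theorem sph_connected (hs : Nonempty (Z ≃ₜ OnePoint ℂ)) : ConnectedSpace Z := by
  obtain ⟨e⟩ := hs
  exact e.symm.surjective.connectedSpace e.symm.continuous

/-- charts sending a given point to `∞` (compose with a homeomorphism of `OnePoint ℂ`, e.g. through
`onePointEquivSphereOfFinrankEq` and a reflection of the sphere, or the map `z ↦ 1/(z - a)`). -/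
theorem sph_chart (hs : Nonempty (Z ≃ₜ OnePoint ℂ)) (p : Z) :
    ∃ e : Z ≃ₜ OnePoint ℂ, e p = OnePoint.infty := by
  obtain ⟨e⟩ := hs
  let h := onePointEquivSphereOfFinrankEq (ι := Fin 3) (V := ℂ) (by simp)
  let R := Submodule.reflection (ℝ ∙ ((h (e p) : EuclideanSpace ℝ (Fin 3)) - h OnePoint.infty))ᗮ
  let T : sphere (0 : EuclideanSpace ℝ (Fin 3)) 1 ≃ₜ sphere (0 : EuclideanSpace ℝ (Fin 3)) 1 :=
    R.toHomeomorph.subtype fun x => by simp
  refine ⟨e.trans (h.trans (T.trans h.symm)), ?_⟩
  have : T (h (e p)) = h OnePoint.infty := Subtype.ext (Submodule.reflection_sub (by simp))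
  simp [this]

theorem sph_locallyConnected (hs : Nonempty (Z ≃ₜ OnePoint ℂ)) : LocallyConnectedSpace Z := by
  obtain ⟨e⟩ := hs
  let h := onePointEquivSphereOfFinrankEq (ι := Fin 3) (V := ℂ) (by simp)
  have : Fact (Module.finrank ℝ (EuclideanSpace ℝ (Fin 3)) = 2 + 1) := ⟨by simp⟩
  have := ChartedSpace.locallyConnectedSpace (EuclideanSpace ℝ (Fin 2))
    (sphere (0 : EuclideanSpace ℝ (Fin 3)) 1)
  exact (e.trans h).locallyConnectedSpace

/-- complements of finite sets are connected
(`Set.Countable.isPathConnected_compl_of_one_lt_rank` in `ℂ`, which is dense in `OnePoint ℂ`). -/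
theorem sph_compl_finite (hs : Nonempty (Z ≃ₜ OnePoint ℂ)) {P : Set Z} (hP : P.Finite) :
    IsPreconnected Pᶜ := by
  rcases P.eq_empty_or_nonempty with rfl | ⟨p, hp⟩
  · have := sph_connected hs
    simpa using isPreconnected_univ
  obtain ⟨e, he⟩ := sph_chart hs p
  have hc : Continuous fun z : ℂ => e.symm z := e.symm.continuous.comp OnePoint.continuous_coe
  have h1 : ((fun z : ℂ => e.symm z) ⁻¹' P).Finite :=
    hP.preimage (e.symm.injective.comp OnePoint.coe_injective).injOn
  have h2 := ((h1.countable.isPathConnected_compl_of_one_lt_rank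
    (by simp [Complex.rank_real_complex])).isConnected.isPreconnected).image _ hc.continuousOn
  convert h2 using 1
  ext z
  refine ⟨fun hz => ?_, by rintro ⟨w, hw, rfl⟩; exact hw⟩
  have : e z ≠ OnePoint.infty := fun h => hz (e.injective (h.trans he.symm) ▸ hp)
  obtain ⟨w, hw⟩ := OnePoint.ne_infty_iff_exists.1 this
  exact ⟨w, by simpa [hw] using hz, by simp [hw]⟩

private theorem topb_ivt (hs : Nonempty (Z ≃ₜ OnePoint ℂ)) (x z : Z) {t : ℝ} (h0 : 0 ≤ t)
    (h1 : t ≤ dist x z) : ∃ y, dist x y = t := by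
  have := sph_connected hs
  have h := intermediate_value_univ x z (f := fun y => dist x y) (by fun_prop)
  exact h ⟨by simpa using h0, h1⟩

/-- all small distances occur at every point (connected, at least two points) -/
theorem sph_dist_all (hs : Nonempty (Z ≃ₜ OnePoint ℂ)) : ∃ a : ℝ, 0 < a ∧ a ≤ 1 ∧
    ∀ (x : Z) (t : ℝ), 0 ≤ t → t ≤ a → ∃ y, dist x y = t := by
  obtain ⟨e⟩ := id hs
  set p := e.symm OnePoint.infty
  set q := e.symm ((0 : ℂ) : OnePoint ℂ)
  have hpq : 0 < dist p q := dist_pos.2 fun h => OnePoint.infty_ne_coe _ (e.symm.injective h)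
  refine ⟨min (dist p q / 2) 1, by positivity, min_le_right _ _, fun x t h0 h1 => ?_⟩
  have h2 : t ≤ dist p q / 2 := h1.trans (min_le_left _ _)
  have h3 := dist_triangle_left p q x
  rcases le_total (dist x p) (dist x q) with h | h
  · exact topb_ivt hs x q h0 (by linarith)
  · exact topb_ivt hs x p h0 (by linarith)

/-- intermediate distances -/
theorem sph_dist_ivt (hs : Nonempty (Z ≃ₜ OnePoint ℂ)) (x z : Z) {t : ℝ} (h0 : 0 ≤ t)
    (h1 : t ≤ dist x z) : ∃ y, dist x y = t :=
  topb_ivt hs x z h0 h1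

/-- uniform local connectedness (Lebesgue number of the cover by small connected open sets) -/
theorem sph_ulc [CompactSpace Z] (hs : Nonempty (Z ≃ₜ OnePoint ℂ)) {ε : ℝ} (hε : 0 < ε) :
    ∃ δ : ℝ, 0 < δ ∧ ∀ x : Z, ∃ B : Set Z, IsOpen B ∧ IsPreconnected B ∧ ball x δ ⊆ B ∧
      B ⊆ ball x ε := by
  have := sph_locallyConnected hs
  obtain ⟨δ, hδ, h⟩ := lebesgue_number_lemma_of_metric (s := (univ : Set Z))
    (c := fun p : Z => connectedComponentIn (ball p (ε / 2)) p) isCompact_univ
    (fun p => isOpen_ball.connectedComponentIn)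
    fun p _ => mem_iUnion.2 ⟨p, mem_connectedComponentIn (mem_ball_self (half_pos hε))⟩
  refine ⟨δ, hδ, fun x => ?_⟩
  obtain ⟨p, hp⟩ := h x (mem_univ x)
  refine ⟨_, isOpen_ball.connectedComponentIn, isPreconnected_connectedComponentIn, hp, fun y hy => ?_⟩
  have h1 := mem_ball.1 (connectedComponentIn_subset _ _ hy)
  have h2 := mem_ball.1 (connectedComponentIn_subset _ _ (hp (mem_ball_self hδ)))
  have h3 := dist_triangle_right y x p
  rw [mem_ball]
  linarith

end Crest.Agent.R193
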