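import Crest.Agent.R193.B.Ad
import Crest.Agent.R193.B.Top

/-!
# R193/B/Grp: consequences of `HA` for the group elements

`a` is the constant of `sph_dist_all`.  Three points `x, y₁, y₂` with `d(x,y₁) = t/2`, `d(x,y₂) = t` are mutually
`t/2`-separated, so two of them are at distance `≥ t/4` from any given point.
-/

set_option autoImplicit false
open Set Metric Filter Topology MeasureTheory

namespace Crest.Agent.R193

variable {G : Type} [Group G] {Z : Type} [MetricSpace Z] [MulAction G Z]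

/-- `surj` at the `n` with `θ^(n+1) < r ≤ θ^n`, then `Ad.shift` -/
theorem HA.exists_ad (H : HA G Z) : ∃ C : ℝ, 1 ≤ C ∧ ∀ (x : Z) (r : ℝ), 0 < r → r ≤ 1 →
    ∃ g : G, Ad C g x r := by
  have h0 := H.θ_pos
  have h1 := H.one_le_C
  have hK : 1 ≤ H.C / H.θ := (one_le_div h0).2 (H.θ_lt.le.trans h1)
  refine ⟨H.C * (H.C / H.θ) * (2 * (H.C / H.θ) ^ 2) ^ 2,
    one_le_mul_of_one_le_of_one_le (one_le_mul_of_one_le_of_one_le h1 hK)
      (one_le_pow₀ (by nlinarith)), fun x r hr hr1 => ?_⟩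
  obtain ⟨n, hn1, hn2⟩ := exists_nat_pow_near_of_lt_one hr hr1 h0 H.θ_lt
  obtain ⟨g, hg, hx⟩ := H.surj x n
  have hp := pow_pos h0 n
  have ha := H.ad g
  rw [hg] at ha
  refine ⟨g, ha.shift (by linarith) hK hp hr (hx.trans ?_) ?_ (hn2.trans (by nlinarith))⟩
  · exact mul_le_mul_of_nonneg_right (le_div_self (by linarith) h0 H.θ_lt.le) hp.le
  · rw [div_mul_eq_mul_div, le_div_iff₀ h0, ← pow_succ]
    nlinarith

/-- elements of bounded length are uniformly bi-Lipschitz (`Ad.up`, `Ad.low_all`, `K = C / θ^R`) -/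
theorem HA.bilip (H : HA G Z) (R : ℕ) : ∃ K : ℝ, 1 ≤ K ∧ ∀ σ : G, H.len σ ≤ R →
    (∀ a b : Z, dist (σ • a) (σ • b) ≤ K * dist a b) ∧
    (∀ a b : Z, dist a b ≤ K * dist (σ • a) (σ • b)) := by
  have h0 := H.θ_pos
  have h1 := H.one_le_C
  have hp := pow_pos h0 R
  refine ⟨H.C / H.θ ^ R, (one_le_div hp).2 ((pow_le_one₀ h0.le H.θ_lt.le).trans h1),
    fun σ hσ => ?_⟩
  have h2 : H.θ ^ R ≤ H.θ ^ H.len σ := pow_le_pow_of_le_one h0.le H.θ_lt.le hσ
  have hq := pow_pos h0 (H.len σ)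
  refine ⟨fun a b => ((H.ad σ).up hq a b).trans ?_, fun a b => ?_⟩
  · rw [div_mul_eq_mul_div]
    gcongr
  · have h3 := (H.ad σ).low_all (by linarith) hq (pow_le_one₀ h0.le H.θ_lt.le) H.dist_le a b
    rw [div_le_iff₀ (by linarith)] at h3
    rw [div_mul_eq_mul_div, le_div_iff₀ hp]
    nlinarith [mul_le_mul_of_nonneg_right h2 (dist_nonneg (x := a) (y := b))]

theorem HA.ccs (H : HA G Z) : ContinuousConstSMul G Z := by
  refine ⟨fun g => ?_⟩
  obtain ⟨K, hK, h⟩ := H.bilip (H.len g)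
  exact (LipschitzWith.of_dist_le_mul (K := ⟨K, by linarith⟩) (h g le_rfl).1).continuous

/-- two separated points near `x` and far from `p` -/
theorem grpa_three {a : ℝ} (ha : ∀ (x : Z) (t : ℝ), 0 ≤ t → t ≤ a → ∃ y, dist x y = t) (x p : Z)
    {t : ℝ} (h0 : 0 ≤ t) (h1 : t ≤ a) : ∃ y z : Z, dist y x ≤ t ∧ dist z x ≤ t ∧ t / 2 ≤ dist y z ∧
      t / 4 ≤ dist y p ∧ t / 4 ≤ dist z p := by
  obtain ⟨y, hy⟩ := ha x (t / 2) (by linarith) (by linarith)
  obtain ⟨z, hz⟩ := ha x t h0 h1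
  have h2 : t / 2 ≤ dist y z := by linarith [dist_triangle x y z]
  have h3 : dist y x ≤ t := by rw [dist_comm]; linarith
  have h4 : dist z x ≤ t := by rw [dist_comm]; linarith
  have h5 : dist x x ≤ t := by rwa [dist_self]
  rcases lt_or_ge (dist x p) (t / 4) with a1 | a1
  · exact ⟨y, z, h3, h4, h2, by linarith [dist_triangle_right x y p],
      by linarith [dist_triangle_right x z p]⟩
  rcases lt_or_ge (dist y p) (t / 4) with a2 | a2
  · exact ⟨x, z, h5, h4, by linarith, a1, by linarith [dist_triangle_right y z p]⟩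
  · exact ⟨x, y, h5, h3, hy.ge, a1, a2⟩

/-- centre and scale are unique up to constants.  Scale: three points in `closedBall x (a r)`, two of them
`a r/4`-far from `x'`: `Ad.low` at `x` against `Ad.far` at `x'`.  Centre: `x` and a point at distance `a r`. -/
theorem HA.ad_unique (H : HA G Z) (C : ℝ) : ∃ K : ℝ, 1 ≤ K ∧ ∀ (g : G) (x x' : Z) (r r' : ℝ),
    0 < r → r ≤ 1 → 0 < r' → r' ≤ 1 → Ad C g x r → Ad C g x' r' →
      r ≤ K * r' ∧ dist x x' ≤ K * r := by
  obtain ⟨a, a0, a1, ha⟩ := sph_dist_all H.sph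
  have hC : 1 ≤ max C 1 := le_max_right _ _
  set D := max C 1
  have D0 : 0 < D := by linarith
  have hK : 16 ≤ 16 * D ^ 2 / a ^ 2 := by
    rw [le_div_iff₀ (by positivity)]; nlinarith
  have key : ∀ (g : G) (x x' : Z) (r r' : ℝ), 0 < r → r ≤ 1 → 0 < r' → Ad D g x r → Ad D g x' r' →
      r ≤ 16 * D ^ 2 / a ^ 2 * r' := by
    intro g x x' r r' hr hr1 hr' h h'
    obtain ⟨y, z, b1, b2, b3, b4, b5⟩ := grpa_three ha x x' (t := a * r) (by positivity) (by nlinarith)
    have c1 := h.low D0 hr le_rfl (y := y) (z := z) (by nlinarith) (by nlinarith)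
    have e : a * r / (4 * r') * r' = a * r / 4 := by field_simp
    have c2 := h'.far D0 hr' (R := a * r / (4 * r')) (by positivity) (y := y) (z := z)
      (by rwa [e]) (by rwa [e])
    have c3 : a * r / 2 / (D * 1 ^ 2 * r) ≤ 2 * D / (a * r / (4 * r')) :=
      le_trans (by gcongr) (c1.trans c2)
    have e1 : a * r / 2 / (D * 1 ^ 2 * r) = a / (2 * D) := by field_simp
    have e2 : 2 * D / (a * r / (4 * r')) = 8 * D * r' / (a * r) := by field_simp; ring
    rw [e1, e2, div_le_div_iff₀ (by positivity) (by positivity)] at c3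
    rw [div_mul_eq_mul_div, le_div_iff₀ (by positivity)]
    linarith
  set K := 16 * D ^ 2 / a ^ 2 with hKd
  refine ⟨K ^ 2, by nlinarith, fun g x x' r r' hr hr1 hr' hr1' h h' => ?_⟩
  have h := h.mono hr (le_max_left C 1)
  have h' := h'.mono hr' (le_max_left C 1)
  have k1 := key g x x' r r' hr hr1 hr' h h'
  have k2 := key g x' x r' r hr' hr1' hr h' h
  refine ⟨k1.trans (mul_le_mul_of_nonneg_right (by nlinarith) hr'.le), ?_⟩
  rcases le_or_gt (dist x x') (2 * r) with b0 | b0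
  · exact b0.trans (mul_le_mul_of_nonneg_right (by nlinarith) hr.le)
  have d0 : 0 < dist x x' := by linarith
  obtain ⟨y, hy⟩ := ha x (a * r) (by positivity) (by nlinarith)
  have b1 : a * r ≤ r := by nlinarith
  have c1 := h.low D0 hr le_rfl (y := x) (z := y) (by simpa using hr.le) (by rw [dist_comm]; linarith)
  have e : dist x x' / (2 * r') * r' = dist x x' / 2 := by field_simp
  have c2 := h'.far D0 hr' (R := dist x x' / (2 * r')) (by positivity) (y := x) (z := y)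
    (by rw [e]; linarith) (by rw [e]; linarith [dist_triangle x y x'])
  have c3 := c1.trans c2
  have e1 : a * r / (D * 1 ^ 2 * r) = a / D := by field_simp
  have e2 : 2 * D / (dist x x' / (2 * r')) = 4 * D * r' / dist x x' := by field_simp; ring
  rw [hy, e1, e2, div_le_div_iff₀ D0 d0] at c3
  have c4 : dist x x' ≤ K * r' := by
    rw [hKd, div_mul_eq_mul_div, le_div_iff₀ (by positivity)]
    have : 0 ≤ D ^ 2 * r' := by positivity
    nlinarith [mul_le_mul_of_nonneg_left a1 (mul_pos a0 d0).le]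
  calc dist x x' ≤ K * (K * r) := c4.trans (by gcongr)
    _ = _ := by ring

private theorem grpb_two {b y₁ y₂ c : Z} {t : ℝ} (ht : 0 < t) (h1 : dist b y₁ = t / 2)
    (h2 : dist b y₂ = t) : ∃ y z : Z, dist y b ≤ t ∧ dist z b ≤ t ∧ 0 < dist y z ∧
      t / 4 ≤ dist y c ∧ t / 4 ≤ dist z c := by
  have h3 : t / 2 ≤ dist y₁ y₂ := by linarith [dist_triangle b y₁ y₂]
  have e0 : dist b b ≤ t := by rw [dist_self]; exact ht.le
  have e1 : dist y₁ b ≤ t := by rw [dist_comm]; linarith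
  have e2 : dist y₂ b ≤ t := by rw [dist_comm]; linarith
  by_cases c0 : t / 4 ≤ dist b c
  · by_cases c1 : t / 4 ≤ dist y₁ c
    · exact ⟨b, y₁, e0, e1, by linarith, c0, c1⟩
    · exact ⟨b, y₂, e0, e2, by linarith, c0, by linarith [dist_triangle_right y₁ y₂ c, not_le.1 c1]⟩
  · exact ⟨y₁, y₂, e1, e2, by linarith, by linarith [dist_triangle_right b y₁ c, not_le.1 c0],
      by linarith [dist_triangle_right b y₂ c, not_le.1 c0]⟩

private theorem grpb_pow (H : HA G Z) (n : ℕ) : 0 < H.θ ^ n ∧ H.θ ^ n ≤ 1 :=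
  ⟨pow_pos H.θ_pos n, pow_le_one₀ H.θ_pos.le H.θ_lt.le⟩

/-- an element that does not contract a ball of fixed size has bounded length (three points in the ball, two
of them far from `ctr h`, `Ad.up_far`) -/
theorem HA.len_le_of_low (H : HA G Z) (K η : ℝ) (hη : 0 < η) : ∃ R : ℕ, ∀ (h : G) (b : Z),
    (∀ y ∈ ball b η, ∀ z ∈ ball b η, dist y z ≤ K * dist (h • y) (h • z)) → H.len h ≤ R := by
  obtain ⟨a, a0, -, ha⟩ := sph_dist_all H.sph
  set t := min a (η / 2) with htd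
  have t0 : 0 < t := lt_min a0 (by linarith)
  have ta : t ≤ a := min_le_left _ _
  have tη : t < η := (min_le_right _ _).trans_lt (by linarith)
  set K' := max K 1 with hK'
  have K0 : 0 < K' := lt_of_lt_of_le one_pos (le_max_right _ _)
  have C0 : 0 < H.C := lt_of_lt_of_le one_pos H.one_le_C
  obtain ⟨R, hR⟩ := exists_pow_lt_of_lt_one (show 0 < (t / 4) ^ 2 / (K' * H.C) by positivity) H.θ_lt
  refine ⟨R, fun h b hb => ?_⟩
  by_contra hlt
  have h1 : H.θ ^ H.len h ≤ H.θ ^ R := pow_le_pow_of_le_one H.θ_pos.le H.θ_lt.le (not_le.1 hlt).le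
  obtain ⟨y₁, hy₁⟩ := ha b (t / 2) (by linarith) (by linarith)
  obtain ⟨y₂, hy₂⟩ := ha b t t0.le ta
  obtain ⟨y, z, hy, hz, hyz, hyc, hzc⟩ := grpb_two (c := H.ctr h) t0 hy₁ hy₂
  have h2 := hb y (mem_ball.2 (hy.trans_lt tη)) z (mem_ball.2 (hz.trans_lt tη))
  have h3 := (H.ad h).up_far (grpb_pow H _).1 (show 0 < t / 4 by linarith) hyc hzc
  have h4 : dist y z ≤ K' * (H.C * H.θ ^ H.len h * dist y z / (t / 4) ^ 2) :=
    h2.trans ((mul_le_mul_of_nonneg_right (le_max_left _ _) dist_nonneg).trans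
      (mul_le_mul_of_nonneg_left h3 K0.le))
  have h5 : H.θ ^ H.len h * (K' * H.C) < (t / 4) ^ 2 := by
    rw [← lt_div_iff₀ (by positivity)]
    exact h1.trans_lt hR
  rw [← mul_div_assoc, le_div_iff₀ (by positivity)] at h4
  nlinarith [mul_lt_mul_of_pos_right h5 hyz]

/-- elements adapted at comparable balls differ by an element of bounded length (`Ad.shift`, then
`g g'⁻¹` does not contract, `len_le_of_low`) -/
theorem HA.len_close (H : HA G Z) (C K : ℝ) : ∃ R : ℕ, ∀ (g g' : G) (x x' : Z) (r r' : ℝ),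
    0 < r → 0 < r' → Ad C g x r → Ad C g' x' r' → r ≤ K * r' → r' ≤ K * r → dist x x' ≤ K * r →
      H.len (g * g'⁻¹) ≤ R := by
  set C' := max C 1 with hC'
  set K' := max K 1 with hK'
  have C0 : 0 < C' := lt_of_lt_of_le one_pos (le_max_right _ _)
  have K1 : 1 ≤ K' := le_max_right _ _
  obtain ⟨R, hR⟩ := H.len_le_of_low (C' * (C' * K' * (2 * K' ^ 2) ^ 2)) 1 one_pos
  refine ⟨R, fun g g' x x' r r' hr hr' h h' h1 h2 h3 => hR _ x fun y _ z _ => ?_⟩
  have kk : ∀ s : ℝ, 0 < s → K * s ≤ K' * s := fun s hs =>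
    mul_le_mul_of_nonneg_right (le_max_left _ _) hs.le
  have a1 := (h.mono hr (le_max_left C 1)).shift C0 K1 hr hr' (h3.trans (kk r hr))
    (h1.trans (kk r' hr')) (h2.trans (kk r hr))
  have a2 := h'.mono hr' (le_max_left C 1)
  have b1 := (a1 (g'⁻¹ • y) (g'⁻¹ • z)).2
  have b2 := (a2 (g'⁻¹ • y) (g'⁻¹ • z)).1
  rw [smul_inv_smul, smul_inv_smul] at b2
  rw [mul_smul, mul_smul]
  have M0 : 0 < max (dist (g'⁻¹ • y) x') r' * max (dist (g'⁻¹ • z) x') r' :=
    mul_pos (lt_max_of_lt_right hr') (lt_max_of_lt_right hr')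
  refine le_of_mul_le_mul_right (b2.trans ((mul_le_mul_of_nonneg_left b1 C0.le).trans (le_of_eq ?_))) M0
  ring

/-- `Ad.mul_right` and `ad_unique` -/
theorem HA.ctr_mul (H : HA G Z) (h : G) : ∃ K : ℝ, 0 ≤ K ∧ ∀ g : G,
    dist (H.ctr (g * h⁻¹)) (h • H.ctr g) ≤ K * H.θ ^ H.len g := by
  obtain ⟨K₁, K1, hK₁⟩ := H.bilip (H.len h)
  obtain ⟨K, hK1, hK⟩ := H.ad_unique (H.C * K₁ ^ 3)
  have C0 : 0 < H.C := lt_of_lt_of_le one_pos H.one_le_C
  refine ⟨K, by linarith, fun g => ?_⟩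
  have a1 := (H.ad g).mul_right C0 K1 (grpb_pow H _).1 (hK₁ h le_rfl).1 (hK₁ h le_rfl).2
  have a2 := (H.ad (g * h⁻¹)).mono (grpb_pow H _).1
    (le_mul_of_one_le_right C0.le (one_le_pow₀ (n := 3) K1))
  rw [dist_comm]
  exact (hK _ _ _ _ _ (grpb_pow H _).1 (grpb_pow H _).2 (grpb_pow H _).1 (grpb_pow H _).2 a1 a2).2

/-- `Ad.mul_left` and `ad_unique` -/
theorem HA.ctr_nbr (H : HA G Z) (R : ℕ) : ∃ K : ℝ, 0 ≤ K ∧ ∀ σ g : G, H.len σ ≤ R →
    dist (H.ctr (σ * g)) (H.ctr g) ≤ K * H.θ ^ H.len g := by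
  obtain ⟨K₁, K1, hK₁⟩ := H.bilip R
  obtain ⟨K, hK1, hK⟩ := H.ad_unique (H.C * K₁)
  have C0 : 0 < H.C := lt_of_lt_of_le one_pos H.one_le_C
  refine ⟨K, by linarith, fun σ g hσ => ?_⟩
  have a1 := (H.ad g).mul_left C0 K1 (grpb_pow H _).1 (hK₁ σ hσ).1 (hK₁ σ hσ).2
  have a2 := (H.ad (σ * g)).mono (grpb_pow H _).1 (le_mul_of_one_le_right C0.le K1)
  rw [dist_comm]
  exact (hK _ _ _ _ _ (grpb_pow H _).1 (grpb_pow H _).2 (grpb_pow H _).1 (grpb_pow H _).2 a1 a2).2

/-- same level, close centres: differ by a short element (`len_close`) -/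
theorem HA.nbr_of_close (H : HA G Z) (K : ℝ) : ∃ R : ℕ, ∀ g g' : G, H.len g = H.len g' →
    dist (H.ctr g) (H.ctr g') ≤ K * H.θ ^ H.len g → H.len (g' * g⁻¹) ≤ R := by
  obtain ⟨R, hR⟩ := H.len_close H.C (max K 1)
  refine ⟨R, fun g g' hl hd => ?_⟩
  have p := (grpb_pow H (H.len g)).1
  have q : H.θ ^ H.len g ≤ max K 1 * H.θ ^ H.len g := le_mul_of_one_le_left p.le (le_max_right _ _)
  refine hR g' g (H.ctr g') (H.ctr g) _ _ p p (hl ▸ H.ad g') (H.ad g) q q ?_
  rw [dist_comm]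
  exact hd.trans (mul_le_mul_of_nonneg_right (le_max_left _ _) p.le)

/-- bounded multiplicity at each level (`nbr_of_close`, `fin_ball`) -/
theorem HA.level_mult (H : HA G Z) (K : ℝ) : ∃ N : ℕ, ∀ (t : ℕ) (x : Z) (T : Finset G),
    (∀ g ∈ T, H.len g = t ∧ dist (H.ctr g) x ≤ K * H.θ ^ t) → T.card ≤ N := by
  classical
  obtain ⟨R, hR⟩ := H.nbr_of_close (2 * K)
  refine ⟨(H.fin_ball R).toFinset.card, fun t x T hT => ?_⟩
  rcases T.eq_empty_or_nonempty with rfl | ⟨g₀, h₀⟩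
  · simp
  refine Finset.card_le_card_of_injOn (fun g => g * g₀⁻¹) (fun g hg => ?_)
    fun g _ g' _ e => mul_right_cancel e
  have hg' : g ∈ T := hg
  simp only [Finite.coe_toFinset, mem_setOf_eq]
  refine hR g₀ g ((hT g₀ h₀).1.trans (hT g hg').1.symm) ?_
  rw [(hT g₀ h₀).1]
  linarith [dist_triangle_right (H.ctr g₀) (H.ctr g) x, (hT g₀ h₀).2, (hT g hg').2]

/-- cocompactness on triples: adapt at the closest pair -/
theorem HA.triples (H : HA G Z) : ∃ ε : ℝ, 0 < ε ∧ ∀ x y z : Z, x ≠ y → y ≠ z → x ≠ z →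
    ∃ g : G, ε ≤ dist (g • x) (g • y) ∧ ε ≤ dist (g • y) (g • z) ∧ ε ≤ dist (g • x) (g • z) := by
  obtain ⟨C, hC, h⟩ := H.exists_ad
  have hC0 : 0 < C := by linarith
  have key : ∀ x y z : Z, x ≠ y → dist x y ≤ dist x z → dist x y ≤ dist y z → ∃ g : G,
      1 / (2 * C) ≤ dist (g • x) (g • y) ∧ 1 / (2 * C) ≤ dist (g • y) (g • z) ∧
        1 / (2 * C) ≤ dist (g • x) (g • z) := fun x y z hxy h1 h2 => by
    have hr := dist_pos.2 hxy
    obtain ⟨g, hg⟩ := h x _ hr (H.dist_le x y)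
    have k : ∀ a b : Z, a ≠ b → max (dist a x) (dist x y) = dist x y →
        max (dist b x) (dist x y) ≤ 2 * dist a b → 1 / (2 * C) ≤ dist (g • a) (g • b) :=
      fun a b hab ha hb => by
        have h3 := (hg a b).2
        rw [ha] at h3
        have h4 := h3.trans (mul_le_mul_of_nonneg_left (mul_le_mul_of_nonneg_left
          (mul_le_mul_of_nonneg_left hb hr.le) dist_nonneg) hC0.le)
        rw [div_le_iff₀ (by positivity)]
        refine le_of_mul_le_mul_right ?_ (mul_pos hr (dist_pos.2 hab))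
        linarith
    have hx : max (dist x x) (dist x y) = dist x y := by rw [dist_self]; exact max_eq_right hr.le
    refine ⟨g, k x y hxy hx (by rw [dist_comm y x, max_self]; linarith),
      k y z (dist_pos.1 (hr.trans_le h2)) (by rw [dist_comm y x, max_self]) (max_le ?_ (by linarith)),
      k x z (dist_pos.1 (hr.trans_le h1)) hx (max_le (by rw [dist_comm z x]; linarith) (by linarith))⟩
    linarith [dist_triangle_left z x y, dist_comm x y]
  refine ⟨1 / (2 * C), by positivity, fun x y z hxy hyz hxz => ?_⟩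
  by_cases h1 : dist x y ≤ dist x z ∧ dist x y ≤ dist y z
  · exact key x y z hxy h1.1 h1.2
  by_cases h2 : dist y z ≤ dist x z
  · obtain ⟨g, a, b, c⟩ := key y z x hyz (by
      rw [dist_comm y x]; by_contra hc; exact h1 ⟨by linarith, by linarith⟩) (by rwa [dist_comm z x])
    exact ⟨g, by rwa [dist_comm], a, by rwa [dist_comm]⟩
  · obtain ⟨g, a, b, c⟩ := key x z y hxz (by
      by_contra hc; exact h1 ⟨by linarith, by linarith⟩) (by rw [dist_comm z y]; linarith)
    exact ⟨g, c, by rwa [dist_comm], a⟩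

/-- properness: only finitely many elements have a common modulus of non-contraction (three
`a/2`-separated points, `Ad.up_far`, `fin_ball`) -/
theorem HA.finite_of_low (H : HA G Z) : ∃ δ : ℝ, 0 < δ ∧ ∀ ε : ℝ, 0 < ε →
    {g : G | ∀ y z : Z, δ ≤ dist y z → ε ≤ dist (g • y) (g • z)}.Finite := by
  obtain ⟨a, ha, -, hd⟩ := sph_dist_all H.sph
  obtain ⟨e⟩ := H.sph
  set x := e.symm OnePoint.infty
  obtain ⟨y, hy⟩ := hd x (a / 2) (by linarith) (by linarith)
  obtain ⟨z, hz⟩ := hd x a ha.le le_rfl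
  have hC : 0 < H.C := one_pos.trans_le H.one_le_C
  refine ⟨a / 2, half_pos ha, fun ε hε => ?_⟩
  have ht := ((tendsto_pow_atTop_nhds_zero_of_lt_one H.θ_pos.le H.θ_lt).const_mul H.C).div_const
    ((a / 4) ^ 2)
  rw [mul_zero, zero_div] at ht
  obtain ⟨R, hR⟩ := eventually_atTop.1 (ht.eventually_lt_const hε)
  refine (H.fin_ball R).subset fun g hg => (not_lt.1 fun hc => ?_ : H.len g ≤ R)
  have k : ∀ p q : Z, a / 2 ≤ dist p q → a / 4 ≤ dist p (H.ctr g) → dist q (H.ctr g) < a / 4 :=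
    fun p q h1 h2 => not_le.1 fun h3 => by
      have h4 := (H.ad g).up_far (pow_pos H.θ_pos _) (by positivity) h2 h3
      have h5 : H.C * H.θ ^ H.len g * dist p q / (a / 4) ^ 2 ≤ H.C * H.θ ^ H.len g / (a / 4) ^ 2 :=
        div_le_div_of_nonneg_right (mul_le_of_le_one_right
          (mul_pos hC (pow_pos H.θ_pos _)).le (H.dist_le p q)) (by positivity)
      linarith [hg p q h1, hR _ hc.le]
  have hyz : a / 2 ≤ dist y z := by linarith [dist_triangle x y z]
  by_cases hx : a / 4 ≤ dist x (H.ctr g)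
  · linarith [k x y hy.ge hx, k x z (by linarith) hx, dist_triangle_right y z (H.ctr g)]
  · have h1 : a / 4 ≤ dist y (H.ctr g) := by linarith [dist_triangle_right x y (H.ctr g)]
    linarith [k y z hyz h1, dist_triangle_right x z (H.ctr g)]

end Crest.Agent.R193
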