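import Crest.Agent.R193.B.Top

/-!
# R193/B/Unico: unicoherence of the sphere

* `sph_log`: on `ℂ ⊆ OnePoint ℂ` lift `f` through the covering `Complex.exp`
  (`Complex.isCoveringMapOn_exp` / `IsCoveringMap.existsUnique_continuousMap_lifts`, `ℂ` simply connected), near
  `∞` use `g₂ = log (f / f ∞) + log (f ∞)`; `(g₁ - g₂)/(2πi)` is continuous and integer valued on
  the connected set `{R < ‖z‖}`, so constant; glue.
* `unicoherent`: if `A ∩ B = X ⊔ Y` (disjoint, closed, nonempty), take Urysohn `φ = 0` on `X`, `1` on `Y`,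
  `f = exp (iπφ)` on `A`, `exp (-iπφ)` on `B` (agree on `A ∩ B`), `f = exp g`; `g - iπφ ∈ 2πiℤ` is constant on `A`,
  `g + iπφ` is constant on `B`; compare on `X` and on `Y`.
* `frontier_component`: `P` = component of `Qᶜ` (open, local connectedness).  `A = closure P`, `B = Pᶜ`, which is
  `Q` together with the other components of `Qᶜ`, each of which has a point of `Q` in its closure
  (else it is clopen); so `B` is preconnected, and `A ∩ B = frontier P`.
-/

set_option autoImplicit false
open Set Metric Filter Topology MeasureTheory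

namespace Crest.Agent.R193

variable {Z : Type} [MetricSpace Z]

theorem unicoa_ext {R : ℝ} (hR : 0 ≤ R) : IsPreconnected {z : ℂ | R < ‖z‖} := by
  have h : {z : ℂ | R < ‖z‖} =
      (fun p : ℝ × ℝ => (p.1 : ℂ) * Complex.exp (p.2 * Complex.I)) '' (Ioi R ×ˢ univ) := by
    ext z
    constructor
    · exact fun hz => ⟨(‖z‖, Complex.arg z), ⟨hz, trivial⟩, Complex.norm_mul_exp_arg_mul_I z⟩
    · rintro ⟨p, ⟨h1, -⟩, rfl⟩
      have h2 : R < p.1 := h1
      show R < ‖(p.1 : ℂ) * Complex.exp (p.2 * Complex.I)‖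
      rwa [norm_mul, Complex.norm_exp_ofReal_mul_I, mul_one, Complex.norm_real,
        Real.norm_of_nonneg (hR.trans h2.le)]
  rw [h]
  exact (isPreconnected_Ioi.prod isPreconnected_univ).image _ (Continuous.continuousOn (by fun_prop))

theorem unicoa_log {F : OnePoint ℂ → ℂ} (hF : Continuous F) (h0 : ∀ z, F z ≠ 0) :
    ∃ g : OnePoint ℂ → ℂ, Continuous g ∧ ∀ z, Complex.exp (g z) = F z := by
  obtain ⟨h1, h2⟩ := (OnePoint.continuous_iff F).1 hF
  obtain ⟨g, ⟨-, hg⟩, -⟩ := Complex.isCoveringMapOn_exp.existsUnique_continuousMap_lifts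
    (⟨fun z : ℂ => F z, h2⟩ : C(ℂ, ℂ)) (a₀ := 0) (Complex.exp_log (h0 _)) fun z => h0 _
  have hg' : ∀ z : ℂ, Complex.exp (g z) = F z := fun z => congrFun hg z
  rw [coclosedCompact_eq_cocompact, ← Metric.cobounded_eq_cocompact] at h1
  have h3 : Tendsto (fun z : ℂ => F z / F OnePoint.infty) (Bornology.cobounded ℂ) (𝓝 1) := by
    simpa only [div_self (h0 _)] using h1.div_const (F OnePoint.infty)
  have h4 : Tendsto (fun z : ℂ => Complex.log (F z / F OnePoint.infty)) (Bornology.cobounded ℂ)
      (𝓝 0) := by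
    simpa only [Complex.log_one] using h3.clog Complex.one_mem_slitPlane
  obtain ⟨R, hR, h5⟩ := (Metric.hasBasis_cobounded_compl_closedBall (0 : ℂ)).eventually_iff.1
    (h3.eventually (Complex.isOpen_slitPlane.mem_nhds Complex.one_mem_slitPlane))
  have h6 : ∀ z : ℂ, |R| < ‖z‖ → F z / F OnePoint.infty ∈ Complex.slitPlane := fun z hz =>
    h5 fun h => (mem_closedBall_zero_iff.1 h).not_gt ((le_abs_self R).trans_lt hz)
  have h7 : ∀ z : ℂ, Complex.exp (g z - Complex.log (F z / F OnePoint.infty)) = F OnePoint.infty :=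
    fun z => by
      rw [Complex.exp_sub, hg', Complex.exp_log (div_ne_zero (h0 _) (h0 _)),
        div_div_cancel₀ (h0 _)]
  have hz : |R| < ‖((|R| + 1 : ℝ) : ℂ)‖ := by
    rw [Complex.norm_real, Real.norm_of_nonneg (by positivity)]
    exact lt_add_one _
  generalize ((|R| + 1 : ℝ) : ℂ) = z₀ at hz
  have h8 : ∀ z : ℂ, |R| < ‖z‖ → g z - Complex.log (F z / F OnePoint.infty) =
      g z₀ - Complex.log (F z₀ / F OnePoint.infty) := fun z hz' =>
    Complex.isCoveringMap_exp.constOn_of_comp (unicoa_ext (abs_nonneg R))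
      (g := fun z : ℂ => g z - Complex.log (F z / F OnePoint.infty))
      (g.continuous.continuousOn.sub ((h2.div_const _).continuousOn.clog h6))
      (fun a _ a' _ => Subtype.ext ((h7 a).trans (h7 a').symm)) hz' hz
  refine ⟨fun z => OnePoint.elim z (g z₀ - Complex.log (F z₀ / F OnePoint.infty)) g,
    (OnePoint.continuous_iff _).2 ⟨?_, g.continuous⟩, fun z => ?_⟩
  · rw [coclosedCompact_eq_cocompact, ← Metric.cobounded_eq_cocompact]
    have h9 := h4.const_add (g z₀ - Complex.log (F z₀ / F OnePoint.infty))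
    rw [add_zero] at h9
    refine h9.congr' ?_
    filter_upwards [(tendsto_norm_cobounded_atTop (E := ℂ)).eventually (eventually_gt_atTop |R|)] with z hz'
    rw [← h8 z hz', sub_add_cancel]
    rfl
  · induction z using OnePoint.rec with
    | infty => exact h7 z₀
    | coe z => exact hg' z

theorem sph_log (hs : Nonempty (Z ≃ₜ OnePoint ℂ)) {f : Z → ℂ} (hf : Continuous f)
    (h0 : ∀ z, f z ≠ 0) : ∃ g : Z → ℂ, Continuous g ∧ ∀ z, Complex.exp (g z) = f z := by
  obtain ⟨e⟩ := hs
  obtain ⟨g, h1, h2⟩ := unicoa_log (hf.comp e.symm.continuous) fun z => h0 _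
  exact ⟨fun z => g (e z), h1.comp e.continuous, fun z => by
    rw [h2, Function.comp, e.symm_apply_apply]⟩

private theorem unicoB_const {S : Set Z} (hS : IsPreconnected S) {h : Z → ℂ} (hh : Continuous h)
    (h1 : ∀ z ∈ S, Complex.exp (h z) = 1) {x y : Z} (hx : x ∈ S) (hy : y ∈ S) : h x = h y := by
  have hc : (range fun n : ℤ => (n : ℂ) * (2 * Real.pi * Complex.I)).Countable := countable_range _
  refine hc.isTotallyDisconnected (h '' S) ?_ (hS.image h hh.continuousOn) ⟨x, hx, rfl⟩ ⟨y, hy, rfl⟩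
  rintro _ ⟨z, hz, rfl⟩
  obtain ⟨n, hn⟩ := Complex.exp_eq_one_iff.1 (h1 z hz)
  exact ⟨n, hn.symm⟩

theorem unicoherent (hs : Nonempty (Z ≃ₜ OnePoint ℂ)) {A B : Set Z} (hA : IsClosed A)
    (hB : IsClosed B) (hA' : IsPreconnected A) (hB' : IsPreconnected B) (hAB : A ∪ B = univ) :
    IsPreconnected (A ∩ B) := by
  classical
  rw [isPreconnected_iff_subset_of_fully_disjoint_closed (hA.inter hB)]
  intro u v hu hv huv hd
  by_contra hcon
  rw [not_or, not_subset, not_subset] at hcon
  obtain ⟨⟨x, hx, hxu⟩, ⟨y, hy, hyv⟩⟩ := hcon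
  have hxv : x ∈ v := (huv hx).resolve_left hxu
  have hyu : y ∈ u := (huv hy).resolve_right hyv
  obtain ⟨φ, h0, h1, -⟩ := exists_continuous_zero_one_of_isClosed hu hv hd
  let a : Z → ℂ := fun z => (φ z : ℂ) * (Real.pi * Complex.I)
  have ha : Continuous a := by fun_prop
  let f : Z → ℂ := fun z => if z ∈ A then Complex.exp (a z) else Complex.exp (-a z)
  have hfA : ∀ z ∈ A, f z = Complex.exp (a z) := fun z hz => if_pos hz
  have hfB : ∀ z ∈ B, f z = Complex.exp (-a z) := by
    intro z hz
    by_cases hzA : z ∈ A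
    · rw [hfA z hzA]
      rcases huv ⟨hzA, hz⟩ with h | h
      · simp [a, h0 h]
      · simp [a, h1 h, Complex.exp_neg]
    · exact if_neg hzA
  have hf : Continuous f := by
    rw [← continuousOn_univ, ← hAB]
    refine ContinuousOn.union_of_isClosed ?_ ?_ hA hB
    · exact (ha.cexp.continuousOn).congr hfA
    · exact (ha.neg.cexp.continuousOn).congr hfB
  have hf0 : ∀ z, f z ≠ 0 := by
    intro z
    simp only [f]
    split_ifs <;> exact Complex.exp_ne_zero _
  obtain ⟨g, hg, hgf⟩ := sph_log hs hf hf0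
  have e1 : g x - a x = g y - a y :=
    unicoB_const (h := fun z => g z - a z) hA' (hg.sub ha) (fun z hz => by
      rw [Complex.exp_sub, hgf, hfA z hz, div_self (Complex.exp_ne_zero _)]) hx.1 hy.1
  have e2 : g x - -a x = g y - -a y :=
    unicoB_const (h := fun z => g z - -a z) hB' (hg.sub ha.neg) (fun z hz => by
      rw [Complex.exp_sub, hgf, hfB z hz, div_self (Complex.exp_ne_zero _)]) hx.2 hy.2
  have e3 : a x = a y := by linear_combination (e2 - e1) / 2
  simp [a, h0 hyu, h1 hxv] at e3

theorem frontier_component (hs : Nonempty (Z ≃ₜ OnePoint ℂ)) {Q : Set Z} (hQ : IsClosed Q)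
    (hQ' : IsPreconnected Q) (x : Z) :
    IsPreconnected (frontier (connectedComponentIn Qᶜ x)) := by
  have := sph_connected hs
  have := sph_locallyConnected hs
  have hop : ∀ y, IsOpen (connectedComponentIn Qᶜ y) := fun y => hQ.isOpen_compl.connectedComponentIn
  have key : ∀ y z, z ∈ closure (connectedComponentIn Qᶜ y) → z ∉ Q → z ∈ connectedComponentIn Qᶜ y := by
    intro y z hz hzQ
    obtain ⟨w, hw1, hw2⟩ := mem_closure_iff.1 hz _ (hop z) (mem_connectedComponentIn hzQ)
    rw [connectedComponentIn_eq hw2, ← connectedComponentIn_eq hw1]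
    exact mem_connectedComponentIn hzQ
  rw [(hop x).frontier_eq]
  rcases Q.eq_empty_or_nonempty with rfl | ⟨q, hq⟩
  · rw [sdiff_eq_empty.2 fun z hz => key x z hz (notMem_empty z)]
    exact isPreconnected_empty
  have hQP : Q ⊆ (connectedComponentIn Qᶜ x)ᶜ := fun z hz h => connectedComponentIn_subset _ _ h hz
  refine unicoherent hs isClosed_closure (hop x).isClosed_compl
    isPreconnected_connectedComponentIn.closure (isPreconnected_of_forall q fun y hy => ?_)
    (eq_univ_of_forall fun z => (em _).imp (fun h => subset_closure h) id)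
  by_cases hyQ : y ∈ Q
  · exact ⟨Q, hQP, hq, hyQ, hQ'⟩
  have hy' : y ∈ connectedComponentIn Qᶜ y := mem_connectedComponentIn hyQ
  obtain ⟨z, hz, hzQ⟩ : ∃ z ∈ closure (connectedComponentIn Qᶜ y), z ∈ Q := by
    by_contra h
    push Not at h
    have hc : IsClopen (connectedComponentIn Qᶜ y) :=
      ⟨closure_subset_iff_isClosed.1 fun z hz => key y z hz (h z hz), hop y⟩
    have h1 : q ∈ connectedComponentIn Qᶜ y := by
      rw [hc.eq_univ ⟨y, hy'⟩]; trivial
    exact connectedComponentIn_subset _ _ h1 hq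
  refine ⟨Q ∪ closure (connectedComponentIn Qᶜ y), union_subset hQP fun w hw h => hy ?_, Or.inl hq,
    Or.inr (subset_closure hy'), hQ'.union z hzQ hz isPreconnected_connectedComponentIn.closure⟩
  rw [connectedComponentIn_eq h,
    ← connectedComponentIn_eq (key y w hw (connectedComponentIn_subset _ _ h))]
  exact hy'

end Crest.Agent.R193
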